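import Mathlib.MeasureTheory.Measure.Hausdorff
import Mathlib.Topology.Homotopy.Basic

/-!
# P260: densities of measures, classes of maps with homotopy sections, volume gap
-/

set_option autoImplicit false

namespace Vale.Agent.P260.R3.H149

open MeasureTheory Set

/-- The measure `μ` has positive lower `n`-density at every point: for every `x` there is a
constant `c > 0` with `c * r ^ n ≤ μ (B(x, r))` for all small `r > 0`. -/
def LowerDensity {X : Type*} [MetricSpace X] [MeasurableSpace X] (n : ℕ) (μ : Measure X) : Prop :=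
  ∀ x, ∃ c : ℝ, 0 < c ∧ ∃ r₀ : ℝ, 0 < r₀ ∧ ∀ r, 0 < r → r < r₀ →
    ENNReal.ofReal (c * r ^ n) ≤ μ (Metric.ball x r)

/-- The measure `μ` has finite upper `n`-density at every point: for every `x` there is a
constant `C` with `μ (B(x, r)) ≤ C * r ^ n` for all small `r > 0`. -/
def UpperDensity {X : Type*} [MetricSpace X] [MeasurableSpace X] (n : ℕ) (μ : Measure X) : Prop :=
  ∀ x, ∃ C : ℝ, ∃ r₀ : ℝ, 0 < r₀ ∧ ∀ r, 0 < r → r < r₀ →
    μ (Metric.ball x r) ≤ ENNReal.ofReal (C * r ^ n)

/-- The map `f` does not increase the volume of compact sets, and the total volume of the source is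
at most that of the target. -/
def NoExpansion {M N : Type*} [TopologicalSpace M] [MeasurableSpace M] [MeasurableSpace N]
    (μ : Measure M) (ν : Measure N) (f : M → N) : Prop :=
  (∀ A : Set M, IsCompact A → ν (f '' A) ≤ μ A) ∧ μ univ ≤ ν univ

/-- `P` is a homotopy invariant set of maps which have a homotopy section. -/
def SectionClass {M N : Type*} [TopologicalSpace M] [TopologicalSpace N]
    (P : C(M, N) → Prop) : Prop :=
  (∀ f f' : C(M, N), P f → f.Homotopic f' → P f') ∧
    ∀ f : C(M, N), P f → ∃ g : C(N, M), (f.comp g).Homotopic (ContinuousMap.id N)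

/-- For some `ε > 0`, `(1 + ε) Hⁿ(N) < Kⁿ Hⁿ(M)` for all `K`-Lipschitz maps in `P`. -/
def VolumeGap {M N : Type*} [MetricSpace M] [MeasurableSpace M] [BorelSpace M]
    [MetricSpace N] [MeasurableSpace N] [BorelSpace N] (n : ℕ) (P : C(M, N) → Prop) : Prop :=
  ∃ ε : ℝ, 0 < ε ∧ ∀ (f : C(M, N)) (K : NNReal), P f → LipschitzWith K f →
    ENNReal.ofReal (1 + ε) * Measure.hausdorffMeasure (n : ℝ) (univ : Set N) <
      (K : ENNReal) ^ n * Measure.hausdorffMeasure (n : ℝ) (univ : Set M)

end Vale.Agent.P260.R3.H149
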