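import Mathlib.Topology.MetricSpace.Lipschitz
import Mathlib.Order.Filter.Ultrafilter.Basic
import Mathlib.Analysis.SpecialFunctions.Pow.Real
import Mathlib.Topology.MetricSpace.Basic

/-!
# P260: limits of Lipschitz maps
-/

set_option autoImplicit false
set_option linter.all false

namespace Vale.Agent.P260.R3.H149

open Metric Set Topology Filter

/-- the limit of a sequence of maps with almost optimal Lipschitz constants -/
theorem exists_limit {M N : Type*} [MetricSpace M] [CompactSpace M] [MetricSpace N]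
    [CompactSpace N] {K : ℝ} (hK : 0 ≤ K) (f : ℕ → M → N) (ε : ℕ → ℝ)
    (hε : Tendsto ε atTop (𝓝 0)) (hε0 : ∀ i, 0 ≤ ε i) (hε2 : ∀ i, ε i ≤ 1)
    (hf : ∀ i x x', dist (f i x) (f i x') ≤ (1 + ε i) * K * dist x x') :
    ∃ f0 : M → N, (∀ x x', dist (f0 x) (f0 x') ≤ K * dist x x') ∧
      ∀ η > 0, ∃ i, ∀ x, dist (f i x) (f0 x) < η := by
  let 𝒰 : Ultrafilter ℕ := hyperfilter ℕ
  have hU : (𝒰 : Filter ℕ) ≤ atTop := by
    rw [← Nat.cofinite_eq_atTop]
    exact hyperfilter_le_cofinite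
  have hεU : Tendsto ε 𝒰 (𝓝 0) := hε.mono_left hU
  have limN : ∀ u : ℕ → N, ∃ y, Tendsto u 𝒰 (𝓝 y) := fun u => by
    obtain ⟨y, -, hy⟩ := isCompact_univ.ultrafilter_le_nhds (𝒰.map u) (by simp)
    exact ⟨y, hy⟩
  choose f0 hf0 using fun x => limN fun i => f i x
  have lf : ∀ x x', dist (f0 x) (f0 x') ≤ K * dist x x' := by
    intro x x'
    have h1 : Tendsto (fun i => (1 + ε i) * K * dist x x') 𝒰 (𝓝 ((1 + 0) * K * dist x x')) :=
      ((tendsto_const_nhds.add hεU).mul_const K).mul_const _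
    rw [add_zero, one_mul] at h1
    exact le_of_tendsto_of_tendsto ((hf0 x).dist (hf0 x')) h1
      (Eventually.of_forall fun i => hf i x x')
  refine ⟨f0, lf, fun η hη => ?_⟩
  have hδ : 0 < η / (4 * (K + 1)) := by positivity
  obtain ⟨t, -, htf, ht⟩ := finite_cover_balls_of_compact (isCompact_univ (X := M)) hδ
  have hev : ∀ᶠ i in (𝒰 : Filter ℕ), ∀ p ∈ t, dist (f i p) (f0 p) < η / 4 := by
    rw [eventually_all_finite htf]
    intro p _
    exact Metric.tendsto_nhds.1 (hf0 p) (η / 4) (by linarith)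
  obtain ⟨i, hi⟩ := hev.exists
  refine ⟨i, fun x => ?_⟩
  obtain ⟨p, hp, hxp⟩ := mem_iUnion₂.1 (ht (mem_univ x))
  have hxp' : dist x p < η / (4 * (K + 1)) := mem_ball.1 hxp
  have hKd : K * dist x p ≤ η / 4 := by
    have h1 : (K + 1) * dist x p ≤ (K + 1) * (η / (4 * (K + 1))) :=
      mul_le_mul_of_nonneg_left hxp'.le (by linarith)
    have h2 : (K + 1) * (η / (4 * (K + 1))) = η / 4 := by
      field_simp
    have h3 : (0 : ℝ) ≤ dist x p := dist_nonneg
    nlinarith
  have h1 : dist (f i x) (f i p) ≤ η / 2 := by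
    refine (hf i x p).trans ?_
    have h2 := mul_le_mul_of_nonneg_right (show 1 + ε i ≤ 2 by linarith [hε2 i])
      (mul_nonneg hK (dist_nonneg (x := x) (y := p)))
    rw [← mul_assoc] at h2
    linarith
  have h3 : dist (f0 p) (f0 x) ≤ η / 4 := by
    rw [dist_comm]
    exact (lf x p).trans hKd
  have h4 := dist_triangle4 (f i x) (f i p) (f0 p) (f0 x)
  have h5 := hi p hp
  linarith

end Vale.Agent.P260.R3.H149
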