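import Mathlib.MeasureTheory.Measure.Lebesgue.Basic
import Mathlib.MeasureTheory.Measure.Hausdorff
import Mathlib.Topology.MetricSpace.Lipschitz
import Mathlib.Topology.MetricSpace.Holder
import Mathlib.Topology.Order.IntermediateValue
import Mathlib.Topology.MetricSpace.Thickening
import Mathlib.Analysis.SpecialFunctions.Pow.Continuity

/-!
# P260: connected fibres and densities
-/

set_option autoImplicit false
set_option linter.all false

namespace Vale.Agent.P260.R3.H149

open Metric Set Topology MeasureTheory Filter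

/-- disjoint balls with centres at gaps -/
theorem pack {M : Type*} [MetricSpace M] [MeasurableSpace M] [BorelSpace M] (μ : Measure M)
    {a : M} {E : Set M} {r : ℝ} (hr : 0 < r) {m : ℝ} (S : Finset ℕ) (x : ℕ → M)
    (hS : ∀ i ∈ S, ∀ j ∈ S, i < j → i + 2 ≤ j)
    (hx : ∀ j ∈ S, 2 * r * j ≤ dist a (x j) ∧ dist a (x j) < 2 * r * (j + 1))
    (hb : ∀ j ∈ S, ball (x j) r ⊆ E)
    (hm : ∀ j ∈ S, ENNReal.ofReal m ≤ μ (ball (x j) r)) :
    (S.card : ENNReal) * ENNReal.ofReal m ≤ μ E := by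
  have hlt : ∀ i ∈ S, ∀ j ∈ S, i < j → Disjoint (ball (x i) r) (ball (x j) r) := by
    intro i hi j hj hij
    have h1 := (hx i hi).2
    have h2 := (hx j hj).1
    have h3 : (i : ℝ) + 2 ≤ j := by exact_mod_cast hS i hi j hj hij
    have h4 : 2 * r * ((i : ℝ) + 2) ≤ 2 * r * j := mul_le_mul_of_nonneg_left h3 (by linarith)
    have h5 : dist a (x j) ≤ dist a (x i) + dist (x i) (x j) := dist_triangle _ _ _
    refine ball_disjoint_ball ?_
    nlinarith
  have hdis : (S : Set ℕ).PairwiseDisjoint fun j => ball (x j) r := by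
    intro i hi j hj hij
    rcases lt_or_gt_of_ne hij with h | h
    · exact hlt i hi j hj h
    · exact (hlt j hj i hi h).symm
  calc (S.card : ENNReal) * ENNReal.ofReal m = ∑ j ∈ S, ENNReal.ofReal m := by
        rw [Finset.sum_const, nsmul_eq_mul]
    _ ≤ ∑ j ∈ S, μ (ball (x j) r) := Finset.sum_le_sum hm
    _ = μ (⋃ j ∈ S, ball (x j) r) :=
        (measure_biUnion_finset hdis fun j _ => isOpen_ball.measurableSet).symm
    _ ≤ μ E := measure_mono (iUnion₂_subset hb)

/-- a connected set is a point if the volume of its neighbourhoods is `o(r ^ (n - 1))` and the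
lower density of the volume at its points is positive -/
theorem sub_of_thick {M : Type*} [MetricSpace M] [CompactSpace M]
    [MeasurableSpace M] [BorelSpace M] {n : ℕ} (μ : Measure M) {F : Set M}
    (hF : IsPreconnected F)
    (hlow : ∀ x ∈ F, ∃ c > 0, ∃ r₀ > 0, ∀ r, 0 < r → r < r₀ →
      ENNReal.ofReal (c * r ^ n) ≤ μ (ball x r))
    (hthick : ∀ δ > 0, ∃ r, 0 < r ∧ r < δ ∧
      μ (thickening r F) ≤ ENNReal.ofReal (δ * (r ^ n / r))) : F.Subsingleton := by
  classical
  intro a ha b hb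
  by_contra hab
  have hd : 0 < dist a b := dist_pos.2 hab
  let A : ℕ → Set M := fun k => {x | x ∈ F ∧ ∀ r, 0 < r → r < 1 / ((k : ℝ) + 1) →
    ENNReal.ofReal (1 / ((k : ℝ) + 1) * r ^ n) ≤ μ (ball x r)}
  let T : ℕ → Set ℝ := fun k => (fun x => dist a x) '' A k
  have hcov : Icc 0 (dist a b) ⊆ ⋃ k, T k := by
    have h1 : IsPreconnected ((fun x => dist a x) '' F) :=
      hF.image _ (continuous_const.dist continuous_id).continuousOn
    have h2 : Icc 0 (dist a b) ⊆ (fun x => dist a x) '' F :=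
      h1.Icc_subset ⟨a, ha, dist_self a⟩ ⟨b, hb, rfl⟩
    intro t ht
    obtain ⟨x, hx, rfl⟩ := h2 ht
    obtain ⟨c, hc, r₀, hr₀, h3⟩ := hlow x hx
    obtain ⟨k, hk⟩ := exists_nat_one_div_lt (lt_min hc hr₀)
    refine mem_iUnion.2 ⟨k, x, ⟨hx, fun r hr hrk => ?_⟩, rfl⟩
    refine le_trans (ENNReal.ofReal_le_ofReal ?_)
      (h3 r hr (hrk.trans (hk.trans_le (min_le_right _ _))))
    exact mul_le_mul_of_nonneg_right (hk.le.trans (min_le_left _ _)) (pow_nonneg hr.le n)
  have hex : ∃ k, volume (T k) ≠ 0 := by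
    by_contra hcon
    push Not at hcon
    have h1 : volume (⋃ k, T k) = 0 := measure_iUnion_null hcon
    have h2 : volume (Icc (0 : ℝ) (dist a b)) ≤ 0 := by
      rw [← h1]
      exact measure_mono hcov
    rw [Real.volume_Icc, sub_zero] at h2
    have h3 := ENNReal.ofReal_pos.2 hd
    exact absurd h2 (not_le.2 h3)
  obtain ⟨k, hk⟩ := hex
  obtain ⟨L, hL⟩ : ∃ L : ℝ, ∀ x : M, dist a x < L := by
    obtain ⟨L, hL⟩ := (isCompact_univ (X := M)).isBounded.subset_ball a
    exact ⟨L, fun x => by rw [dist_comm]; exact mem_ball.1 (hL (mem_univ x))⟩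
  set q : ℝ := 1 / ((k : ℝ) + 1) with hq
  have hqpos : 0 < q := by positivity
  -- the estimate at scale `r`
  have hest : ∀ r δ, 0 < r → r < q → 0 < δ →
      μ (thickening r F) ≤ ENNReal.ofReal (δ * (r ^ n / r)) →
      volume (T k) ≤ ENNReal.ofReal (4 * δ / q) := by
    intro r δ hr hrq hδ hE1
    set J : Finset ℕ := (Finset.range (⌊L / (2 * r)⌋₊ + 1)).filter
      (fun j => ∃ x ∈ A k, 2 * r * j ≤ dist a x ∧ dist a x < 2 * r * (j + 1)) with hJ
    have hxex : ∀ j : ℕ, ∃ x : M, j ∈ J → x ∈ A k ∧ 2 * r * j ≤ dist a x ∧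
        dist a x < 2 * r * (j + 1) := by
      intro j
      by_cases hj : j ∈ J
      · obtain ⟨x, hx⟩ := (Finset.mem_filter.1 hj).2
        exact ⟨x, fun _ => hx⟩
      · exact ⟨a, fun h => absurd h hj⟩
    choose x hx using hxex
    have hbE : ∀ j ∈ J, ball (x j) r ⊆ thickening r F := fun j hj =>
      ball_subset_thickening (hx j hj).1.1 r
    have hmE : ∀ j ∈ J, ENNReal.ofReal (q * r ^ n) ≤ μ (ball (x j) r) := by
      intro j hj
      exact (hx j hj).1.2 r hr hrq
    have hcls : ∀ S : Finset ℕ, S ⊆ J → (∀ i ∈ S, ∀ j ∈ S, i < j → i + 2 ≤ j) →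
        (S.card : ℝ) * r ≤ δ / q := by
      intro S hSJ hgap
      have h1 := pack μ hr S x hgap (fun j hj => (hx j (hSJ hj)).2)
        (fun j hj => hbE j (hSJ hj)) (fun j hj => hmE j (hSJ hj))
      have h2 := h1.trans hE1
      rw [← ENNReal.ofReal_natCast, ← ENNReal.ofReal_mul (by positivity)] at h2
      have h3 := (ENNReal.ofReal_le_ofReal_iff (by positivity)).1 h2
      have hrn : 0 < r ^ n := pow_pos hr n
      rw [le_div_iff₀ hqpos]
      have h4 : ((S.card : ℝ) * r * q) * (r ^ n / r) ≤ δ * (r ^ n / r) := by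
        calc ((S.card : ℝ) * r * q) * (r ^ n / r) = (S.card : ℝ) * (q * r ^ n) := by
              field_simp
          _ ≤ δ * (r ^ n / r) := h3
      exact le_of_mul_le_mul_right h4 (by positivity)
    have hcard : (J.card : ℝ) * r ≤ 2 * (δ / q) := by
      have h1 := hcls (J.filter fun j => Even j) (Finset.filter_subset _ _) (by
        intro i hi j hj hij
        obtain ⟨u, hu⟩ := (Finset.mem_filter.1 hi).2
        obtain ⟨v, hv⟩ := (Finset.mem_filter.1 hj).2
        omega)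
      have h2 := hcls (J.filter fun j => ¬ Even j) (Finset.filter_subset _ _) (by
        intro i hi j hj hij
        obtain ⟨u, hu⟩ := Nat.not_even_iff_odd.1 (Finset.mem_filter.1 hi).2
        obtain ⟨v, hv⟩ := Nat.not_even_iff_odd.1 (Finset.mem_filter.1 hj).2
        omega)
      have h3 : (J.filter fun j => Even j).card + (J.filter fun j => ¬ Even j).card = J.card :=
        Finset.card_filter_add_card_filter_not _
      have h4 : ((J.filter fun j => Even j).card : ℝ) +
        ((J.filter fun j => ¬ Even j).card : ℝ) = J.card := by exact_mod_cast h3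
      rw [← h4, add_mul]
      linarith
    have hsub : T k ⊆ ⋃ j ∈ J, Ico (2 * r * (j : ℝ)) (2 * r * (j + 1)) := by
      rintro _ ⟨z, hz, rfl⟩
      have h2r : 0 < 2 * r := by linarith
      have h0 : 0 ≤ dist a z / (2 * r) := div_nonneg dist_nonneg h2r.le
      have h1 : (⌊dist a z / (2 * r)⌋₊ : ℝ) ≤ dist a z / (2 * r) := Nat.floor_le h0
      have h2 : dist a z / (2 * r) < ⌊dist a z / (2 * r)⌋₊ + 1 := Nat.lt_floor_add_one _
      rw [le_div_iff₀ h2r] at h1
      rw [div_lt_iff₀ h2r] at h2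
      have h3 : 2 * r * (⌊dist a z / (2 * r)⌋₊ : ℝ) ≤ dist a z := by linarith
      have h4 : dist a z < 2 * r * ((⌊dist a z / (2 * r)⌋₊ : ℝ) + 1) := by linarith
      have h5 : ⌊dist a z / (2 * r)⌋₊ ≤ ⌊L / (2 * r)⌋₊ :=
        Nat.floor_le_floor (div_le_div_of_nonneg_right (hL z).le h2r.le)
      refine mem_iUnion₂.2 ⟨⌊dist a z / (2 * r)⌋₊, ?_, h3, h4⟩
      exact Finset.mem_filter.2 ⟨Finset.mem_range.2 (by omega), z, hz, h3, h4⟩
    calc volume (T k) ≤ volume (⋃ j ∈ J, Ico (2 * r * (j : ℝ)) (2 * r * (j + 1))) :=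
          measure_mono hsub
      _ ≤ ∑ j ∈ J, volume (Ico (2 * r * (j : ℝ)) (2 * r * (j + 1))) :=
          measure_biUnion_finset_le _ _
      _ = ∑ j ∈ J, ENNReal.ofReal (2 * r) := by
          refine Finset.sum_congr rfl fun j _ => ?_
          rw [Real.volume_Ico]
          congr 1
          ring
      _ = ENNReal.ofReal ((J.card : ℝ) * (2 * r)) := by
          rw [Finset.sum_const, nsmul_eq_mul, ← ENNReal.ofReal_natCast,
            ← ENNReal.ofReal_mul (by positivity)]
      _ ≤ _ := by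
          refine ENNReal.ofReal_le_ofReal ?_
          have h6 : 4 * δ / q = 2 * (2 * (δ / q)) := by ring
          rw [h6]
          linarith
  -- let `δ` tend to zero
  have hTfin : volume (T k) ≠ ⊤ := by
    obtain ⟨r, hr, hrlt, h1⟩ := hthick q hqpos
    exact ne_top_of_le_ne_top ENNReal.ofReal_ne_top (hest r q hr hrlt hqpos h1)
  have hτ : 0 < (volume (T k)).toReal := ENNReal.toReal_pos hk hTfin
  have hδ : 0 < min q (q * (volume (T k)).toReal / 8) := lt_min hqpos (by positivity)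
  obtain ⟨r, hr, hrlt, h1⟩ := hthick _ hδ
  have h2 := hest r _ hr (hrlt.trans_le (min_le_left _ _)) hδ h1
  have h3 := (ENNReal.le_ofReal_iff_toReal_le hTfin (by positivity)).1 h2
  rw [le_div_iff₀ hqpos] at h3
  have h4 := min_le_right q (q * (volume (T k)).toReal / 8)
  nlinarith [mul_pos hqpos hτ]

/-- a connected fibre of a Hölder map is a point if the volume of the preimages of balls about its
image is small and the volume of balls about its points is not too small -/
theorem sub_of_density {M N : Type*} [MetricSpace M] [CompactSpace M] [MetricSpace N]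
    [MeasurableSpace M] [BorelSpace M] {n : ℕ} (μ : Measure M) {f : M → N} {K α : NNReal}
    (hf : ∀ x x', dist (f x) (f x') ≤ K * dist x x' ^ (α : ℝ)) (hα : (n : ℝ) < n * α + 1)
    (hα0 : 0 < α) {y₀ : N}
    (hF : IsPreconnected (f ⁻¹' {y₀}))
    (hlow : ∀ x, f x = y₀ → ∃ c > 0, ∃ r₀ > 0, ∀ r, 0 < r → r < r₀ →
      ENNReal.ofReal (c * r ^ n) ≤ μ (ball x r))
    (hup : ∃ C, ∃ r₀ > 0, ∀ r, 0 < r → r < r₀ →
      μ (f ⁻¹' ball y₀ r) ≤ ENNReal.ofReal (C * r ^ n)) : (f ⁻¹' {y₀}).Subsingleton := by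
  refine sub_of_thick (n := n) μ hF (fun x hx => hlow x hx) fun δ hδ => ?_
  obtain ⟨C, r₁, hr₁, hC⟩ := hup
  have hK1 : (0 : ℝ) < K + 1 := by positivity
  have hα' : (0 : ℝ) < α := hα0
  set p : ℝ := n * α + 1 - n with hp
  have hp0 : 0 < p := by linarith
  have t1 : Tendsto (fun r : ℝ => (K + 1) * r ^ (α : ℝ)) (𝓝[>] 0) (𝓝 0) := by
    have h1 := ((Real.continuous_rpow_const hα'.le).tendsto 0).const_mul ((K : ℝ) + 1)
    rw [Real.zero_rpow hα'.ne', mul_zero] at h1
    exact h1.mono_left nhdsWithin_le_nhds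
  have t2 : Tendsto (fun r : ℝ => (|C| * (K + 1) ^ n) * r ^ p) (𝓝[>] 0) (𝓝 0) := by
    have h1 := ((Real.continuous_rpow_const hp0.le).tendsto 0).const_mul (|C| * ((K : ℝ) + 1) ^ n)
    rw [Real.zero_rpow hp0.ne', mul_zero] at h1
    exact h1.mono_left nhdsWithin_le_nhds
  have e1 := t1.eventually (gt_mem_nhds hr₁)
  have e2 := t2.eventually (gt_mem_nhds hδ)
  have e3 : ∀ᶠ r in 𝓝[>] (0 : ℝ), r ∈ Ioo 0 δ := Ioo_mem_nhdsGT hδ
  obtain ⟨r, h1, h2, hr, hrδ⟩ := (e1.and (e2.and e3)).exists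
  refine ⟨r, hr, hrδ, ?_⟩
  have hsub : thickening r (f ⁻¹' {y₀}) ⊆ f ⁻¹' ball y₀ ((K + 1) * r ^ (α : ℝ)) := by
    intro z hz
    obtain ⟨x, hx, hzx⟩ := mem_thickening_iff.1 hz
    have hx' : f x = y₀ := hx
    rw [mem_preimage, mem_ball, ← hx']
    have h3 := hf z x
    have h4 : dist z x ^ (α : ℝ) ≤ r ^ (α : ℝ) := Real.rpow_le_rpow dist_nonneg hzx.le hα'.le
    have h5 : 0 < r ^ (α : ℝ) := Real.rpow_pos_of_pos hr _
    have h6 : (K : ℝ) * dist z x ^ (α : ℝ) ≤ K * r ^ (α : ℝ) :=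
      mul_le_mul_of_nonneg_left h4 K.coe_nonneg
    linarith
  refine (measure_mono hsub).trans ((hC _ (by positivity) h1).trans
    (ENNReal.ofReal_le_ofReal ?_))
  have h5 : ((K + 1) * r ^ (α : ℝ)) ^ n = (K + 1) ^ n * (r ^ p * (r ^ n / r)) := by
    rw [mul_pow]
    congr 1
    rw [← Real.rpow_natCast (r ^ (α : ℝ)) n, ← Real.rpow_mul hr.le, ← Real.rpow_natCast r n,
      mul_div_assoc', ← Real.rpow_add hr]
    nth_rewrite 3 [← Real.rpow_one r]
    rw [← Real.rpow_sub hr]
    congr 1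
    rw [hp]
    ring
  have hrn : 0 ≤ r ^ n / r := by positivity
  rw [h5]
  calc C * ((K + 1) ^ n * (r ^ p * (r ^ n / r)))
      = C * ((K + 1) ^ n * r ^ p) * (r ^ n / r) := by ring
    _ ≤ |C| * ((K + 1) ^ n * r ^ p) * (r ^ n / r) := by
        refine mul_le_mul_of_nonneg_right ?_ hrn
        exact mul_le_mul_of_nonneg_right (le_abs_self C) (by positivity)
    _ = (|C| * (K + 1) ^ n) * r ^ p * (r ^ n / r) := by ring
    _ ≤ δ * (r ^ n / r) := mul_le_mul_of_nonneg_right h2.le hrn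

end Vale.Agent.P260.R3.H149
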